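import Vale.Agent.P315.H659.Seed
import Vale.Agent.P315.H873.Glue2

/-!
P315, T-TOP: the seeds as a list and as a function.
-/

set_option autoImplicit false

namespace Vale.Agent.P315.Top

open Vale.Agent.P315 Vale.Agent.P315.H659

theorem getD_ofFn {N e : ℕ} (c : Fin N → Fin e) (i : ℕ) :
    (List.ofFn fun j => (c j : ℕ)).getD i 0 = arrOf c i := by
  unfold arrOf
  split_ifs with h
  · rw [List.getD_eq_getElem?_getD, List.getElem?_eq_getElem (by simpa using h)]
    simp
  · rw [List.getD_eq_getElem?_getD, List.getElem?_eq_none (by simpa using h)]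
    simp

theorem getD_feedP {N e : ℕ} (pre : List ℕ) (c : Fin N → Fin e) (i : ℕ) :
    (H873.feedP pre c).getD (pre.length + i) 0 = arrOf c i := by
  unfold H873.feedP
  rw [← getD_ofFn, List.getD_eq_getElem?_getD, List.getD_eq_getElem?_getD,
    List.getElem?_append_right (by omega)]
  congr 2
  omega

theorem mem_ofFn_lt {N e : ℕ} (c : Fin N → Fin e) :
    ∀ v ∈ List.ofFn fun j => (c j : ℕ), v < e := by
  intro v hv
  rw [List.mem_ofFn] at hv
  obtain ⟨j, rfl⟩ := hv
  exact (c j).isLt

end Vale.Agent.P315.Top
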