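import Vale.Agent.P315.Top.Stmt

/-!
P315, T-TOP: the additive statement in explicit form.
-/

set_option autoImplicit false

namespace Vale.Agent.P315.Top

open Vale.Agent.P315

/-- The statement of the hand-in from `StmtAdd`. -/
theorem explicit_of_stmtAdd (h : StmtAdd) :
    ∀ ε : ℝ, 0 < ε → ∃ δ : ℝ, 0 < δ ∧ ∃ (C : ℝ) (k : ℕ) (P : Prog),
    ∀ (x y : List ℕ) (n b : ℕ), n = max x.length y.length → (n + 2) ^ k ≤ 2 ^ b →
      (∀ a ∈ x ++ y, a < 2 ^ b) →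
      (∀ ρ : ℕ → ℕ, (∀ i, ρ i < 2 ^ b) → ∃ (m : ℕ) (s : State),
        Exec (2 ^ b) ρ P (State.init x y) m s ∧ (m : ℝ) ≤ C * ((n : ℝ) + 1) ^ (2 - δ)) ∧
      ∀ T : ℕ, C * ((n : ℝ) + 1) ^ (2 - δ) ≤ T →
        2 * Nat.card (Fin T → Fin (2 ^ b)) ≤
          3 * Nat.card {ρ : Fin T → Fin (2 ^ b) // ∃ (m : ℕ) (s : State),
            Exec (2 ^ b) (tape ρ) P (State.init x y) m s ∧
            ED x y ≤ s.reg 2 ∧ (s.reg 2 : ℝ) ≤ ED x y + ε * n} := by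
  intro ε hε
  obtain ⟨δ, hδ, C, k, P, hP⟩ := h ε hε
  refine ⟨δ, hδ, C, k, P, ?_⟩
  intro x y n b hn hb hsym
  obtain ⟨h1, h2⟩ := hP x y n b hn hb hsym
  subst hn
  exact ⟨h1, fun T hT => h2 T hT⟩

end Vale.Agent.P315.Top
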